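import Vale.Agent.P089.Final

open Vale.Agent.P089 in
theorem Vale.Agent.Results.P089.A_full.result :
    ∃ (Γ : Type) (_ : Group Γ), Group.FG Γ ∧ Countable Γ ∧
      (∀ z : KCycle Γ, ∃! x : K0 (CStarRed Γ), IsAssembly z x) ∧
      ∃ x : K0 (CStarRed Γ), ∀ z : KCycle Γ, ¬ IsAssembly z x :=
  baumConnes_fails
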