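import Vale.Agent.P089.Core

open Vale.Agent.P089 in
theorem Vale.Agent.Results.P089.B_trace.result :
    ∃ (Γ : Type) (_ : Group Γ), Group.FG Γ ∧ Countable Γ ∧
      ∃ p : CStarRed Γ, IsSelfAdjoint p.op ∧ p * p = p ∧ Transcendental ℚ p.trace :=
  exists_transcendental_trace
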